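import Vale.Agent.P181.H303.Spec

/-!
P181, row REP: representation of the rows of a cluster.
-/

set_option autoImplicit false

namespace Vale.Agent.P181.H873

open Finset Vale.Agent.P181.H303

section
variable {A : Type} {a s : ℕ}

/-- Insert the vector `P` in the rows `R` (numbered by `τ`), `h` in the other rows. -/
def ins (R : Finset (Fin a)) (τ : R ≃ Fin s) (h : Fin a → A) (P : Fin s → A) (r : Fin a) : A :=
  if hr : r ∈ R then P (τ ⟨r, hr⟩) else h r

theorem ins_update (R : Finset (Fin a)) (τ : R ≃ Fin s) (h : Fin a → A) (P : Fin s → A)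
    (i : Fin s) (v : A) : ins R τ h (Function.update P i v) =
      Function.update (ins R τ h P) (τ.symm i : Fin a) v := by
  classical
  funext r
  by_cases hr : r ∈ R
  · by_cases hi : τ ⟨r, hr⟩ = i
    · have h1 : r = (τ.symm i : Fin a) := by
        rw [← hi, Equiv.symm_apply_apply]
      rw [h1, Function.update_self]
      unfold ins
      rw [dif_pos (τ.symm i).2]
      simp
    · have h1 : r ≠ (τ.symm i : Fin a) := by
        intro h2
        apply hi
        have h3 : (⟨r, hr⟩ : R) = τ.symm i := Subtype.ext h2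
        rw [h3, Equiv.apply_symm_apply]
      rw [Function.update_of_ne h1]
      unfold ins
      rw [dif_pos hr, dif_pos hr, Function.update_of_ne hi]
  · have h1 : r ≠ (τ.symm i : Fin a) := by
      intro h2
      exact hr (h2 ▸ (τ.symm i).2)
    rw [Function.update_of_ne h1]
    unfold ins
    rw [dif_neg hr, dif_neg hr]

variable [AddCommGroup A] [Module ℂ A]

/-- The multilinear map `P ↦ F (ins R τ h P)`. -/
def insM (F : MultilinearMap ℂ (fun _ : Fin a => A) ℂ) (R : Finset (Fin a)) (τ : R ≃ Fin s)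
    (h : Fin a → A) : MultilinearMap ℂ (fun _ : Fin s => A) ℂ where
  toFun P := F (ins R τ h P)
  map_update_add' := by
    intro inst P i v v'
    have e : inst = fun a b => instDecidableEqFin s a b := Subsingleton.elim _ _
    subst e
    rw [ins_update, ins_update, ins_update, F.map_update_add]
  map_update_smul' := by
    intro inst P i c v
    have e : inst = fun a b => instDecidableEqFin s a b := Subsingleton.elim _ _
    subst e
    rw [ins_update, ins_update, F.map_update_smul]

/-- All insertions at once. -/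
def allM (F : MultilinearMap ℂ (fun _ : Fin a => A) ℂ) : MultilinearMap ℂ (fun _ : Fin s => A)
    ((Σ R : Finset (Fin a), (R ≃ Fin s) × (Fin a → A)) → ℂ) :=
  MultilinearMap.pi fun k => insM F k.1 k.2.1 k.2.2

theorem allM_apply (F : MultilinearMap ℂ (fun _ : Fin a => A) ℂ) (P : Fin s → A)
    (R : Finset (Fin a)) (τ : R ≃ Fin s) (h : Fin a → A) :
    allM F P ⟨R, (τ, h)⟩ = F (ins R τ h P) := rfl

theorem allM_sy (F : MultilinearMap ℂ (fun _ : Fin a => A) ℂ) (hF : Sy F) :
    Sy (allM (s := s) F) := by
  classical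
  intro σ P
  funext k
  obtain ⟨R, τ, h⟩ := k
  rw [allM_apply, allM_apply]
  -- the permutation of the rows
  let π : Equiv.Perm (Fin a) :=
    (Equiv.Perm.ofSubtype (p := fun r => r ∈ R) ((τ.trans σ).trans τ.symm))
  rw [← hF π (ins R τ h P)]
  congr 1
  funext r
  by_cases hr : r ∈ R
  · have h1 : π r = (τ.symm (σ (τ ⟨r, hr⟩)) : Fin a) :=
      Equiv.Perm.ofSubtype_apply_of_mem _ hr
    rw [h1]
    unfold ins
    rw [dif_pos hr, dif_pos (τ.symm (σ (τ ⟨r, hr⟩))).2]
    simp
  · have h1 : π r = r := Equiv.Perm.ofSubtype_apply_of_not_mem _ hr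
    rw [h1]
    unfold ins
    rw [dif_neg hr, dif_neg hr]

end

theorem mono_sub {A : Type} [CommRing A] {a s : ℕ} (y : Fin a → A) (C : Finset (Fin a))
    (e : Fin s ≃ C) (m : ℕ) :
    Mono (fun i : Fin s => y (e i : Fin a)) m ⊆ MonoF y C m := by
  classical
  rintro x ⟨α, hα, rfl⟩
  have key : ∀ {M : Type} [CommMonoid M] (g : Fin a → ℕ → M), (∀ i, g i 0 = 1) →
      ∏ i, g i (if hi : i ∈ C then α (e.symm ⟨i, hi⟩) else 0) =
        ∏ i : Fin s, g (e i : Fin a) (α i) := by
    intro M _ g hg
    rw [← Finset.prod_subset (Finset.subset_univ C) (fun i _ hi => by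
      rw [dif_neg hi, hg i]), ← Finset.prod_attach C, ← Finset.univ_eq_attach,
      ← Equiv.prod_comp e]
    apply Finset.prod_congr rfl
    intro i _
    rw [dif_pos (e i).2]
    congr 2
    simp
  refine ⟨fun i => if hi : i ∈ C then α (e.symm ⟨i, hi⟩) else 0, fun i hi => dif_neg hi, ?_, ?_⟩
  · have h1 := key (M := Multiplicative ℕ) (fun _ j => Multiplicative.ofAdd j) (fun _ => rfl)
    rw [← hα]
    have h2 := congrArg Multiplicative.toAdd h1
    simpa [toAdd_prod] using h2
  · exact (key (fun i j => y i ^ j) (fun i => pow_zero _)).symm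

theorem rowREP (B : ℕ → ℕ → ℝ) : RowREP B := by
  classical
  intro a q n x F hF C hyp
  let e : Fin C.card ≃ C := C.equivFin.symm
  let y : Fin C.card → MvPolynomial (Fin (n + 1)) ℂ := fun i => lin (x (e i : Fin a))
  obtain ⟨J, w, g, hg, hw, hsum⟩ := hyp _ (allM F) (allM_sy F hF) y
  choose f hf hgf using hg
  refine ⟨J, w, f, hw, fun j => ?_, fun R ρ hρ h => ?_⟩
  · obtain ⟨m, v, u, hu, hv, hfu⟩ := hf j
    exact ⟨m, v, u, fun i => mono_sub (fun i => lin (x i)) C e a (hu i), hv, hfu⟩
  · let τ0 : R ≃ C := hρ.equiv ρ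
    let τ : R ≃ Fin C.card := τ0.trans e.symm
    have h1 := congrFun hsum ⟨R, (τ, h)⟩
    rw [allM_apply, Finset.sum_apply] at h1
    have h2 : ins R τ h (fun i => y i ^ (q * a)) =
        fun r => if r ∈ R then lin (x (ρ r)) ^ (q * a) else h r := by
      funext r
      unfold ins
      by_cases hr : r ∈ R
      · rw [dif_pos hr, if_pos hr]
        have h3 : (e (τ ⟨r, hr⟩) : Fin a) = ρ r := by
          simp only [τ, Equiv.trans_apply, Equiv.apply_symm_apply]
          rfl
        simp only [y]
        rw [h3]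
      · rw [dif_neg hr, if_neg hr]
    rw [h2] at h1
    rw [h1]
    apply Finset.sum_congr rfl
    intro j _
    rw [Pi.smul_apply, smul_eq_mul, hgf j, allM_apply]
    congr 2

end Vale.Agent.P181.H873
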